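import Mathlib

namespace Vale.Agent.Lib.P063

/-- `mu p P` is the probability that a random subset of the finite ground set `E`, containing each
element independently with probability `p`, lies in the family `P`. -/
noncomputable def mu {E : Type} [Fintype E] (p : ℝ) (P : Finset (Finset E)) : ℝ :=
  ∑ H ∈ P, p ^ H.card * (1 - p) ^ (Fintype.card E - H.card)

/-- `threshold P a` is `p_a(P) = inf {p ∈ [0,1] : mu p P ≥ a}`. -/
noncomputable def threshold {E : Type} [Fintype E] (P : Finset (Finset E)) (a : ℝ) : ℝ :=
  sInf {p : ℝ | 0 ≤ p ∧ p ≤ 1 ∧ a ≤ mu p P}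

/-- The potential edges of an `r`-uniform hypergraph on the vertex set `Fin n`:
the `r`-element subsets of `Fin n`. A hypergraph is a `Finset (Edge n r)`. -/
abbrev Edge (n r : ℕ) : Type := {e : Finset (Fin n) // e.card = r}

/-- The image of a hypergraph under a permutation of the vertices. -/
def relabel {n r : ℕ} (σ : Equiv.Perm (Fin n)) (H : Finset (Edge n r)) : Finset (Edge n r) :=
  H.image (fun e => ⟨e.1.map σ.toEmbedding, by rw [Finset.card_map]; exact e.2⟩)

/-- A nontrivial increasing `r`-uniform hypergraph property on `n` vertices: a family of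
hypergraphs that is invariant under all vertex permutations, closed under adding edges,
nonempty and not everything. -/
def IsNontrivialIncreasingProperty {n r : ℕ} (P : Finset (Finset (Edge n r))) : Prop :=
  (∀ σ : Equiv.Perm (Fin n), ∀ H ∈ P, relabel σ H ∈ P) ∧
  (∀ H ∈ P, ∀ H' : Finset (Edge n r), H ⊆ H' → H' ∈ P) ∧
  P.Nonempty ∧ P ≠ Finset.univ

end Vale.Agent.Lib.P063
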