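import Mathlib
import Vale.Agent.Lib.P063.Defs

namespace Vale.Agent.Lib.P063

open Finset

variable {E : Type} [Fintype E] [DecidableEq E]

/-- Reindexing the supersets of `S` inside `U` by subsets of `U \ S`. -/
theorem sum_superset_eq (U S : Finset E) (hS : S ⊆ U) (F : Finset E → ℝ) :
    ∑ H ∈ U.powerset.filter (fun H => S ⊆ H), F H = ∑ T ∈ (U \ S).powerset, F (S ∪ T) := by
  symm
  refine Finset.sum_bij (fun T _ => S ∪ T) ?_ ?_ ?_ ?_
  · intro T hT
    rw [mem_powerset] at hT
    rw [mem_filter, mem_powerset]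
    exact ⟨union_subset hS (hT.trans sdiff_subset), subset_union_left⟩
  · intro T1 hT1 T2 hT2 h
    rw [mem_powerset] at hT1 hT2
    have d1 : Disjoint S T1 := (disjoint_sdiff.mono_right hT1)
    have d2 : Disjoint S T2 := (disjoint_sdiff.mono_right hT2)
    have e1 : (S ∪ T1) \ S = T1 := by
      rw [union_sdiff_left]; exact sdiff_eq_self_of_disjoint d1.symm
    have e2 : (S ∪ T2) \ S = T2 := by
      rw [union_sdiff_left]; exact sdiff_eq_self_of_disjoint d2.symm
    rw [← e1, ← e2, h]
  · intro H hH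
    rw [mem_filter, mem_powerset] at hH
    refine ⟨H \ S, ?_, ?_⟩
    · rw [mem_powerset]
      exact sdiff_subset_sdiff hH.1 (subset_refl S)
    · exact union_sdiff_of_subset hH.2
  · intro T _
    rfl

/-- The binomial identity over the supersets of `S` inside `U`. -/
theorem sum_superset_pow (U S : Finset E) (hS : S ⊆ U) (a b : ℝ) :
    ∑ H ∈ U.powerset.filter (fun H => S ⊆ H), a ^ H.card * b ^ (U.card - H.card)
      = a ^ S.card * (a + b) ^ (U.card - S.card) := by
  rw [sum_superset_eq U S hS]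
  have h1 : ∀ T ∈ (U \ S).powerset, a ^ (S ∪ T).card * b ^ (U.card - (S ∪ T).card)
      = a ^ S.card * (a ^ T.card * b ^ ((U \ S).card - T.card)) := by
    intro T hT
    rw [mem_powerset] at hT
    have d1 : Disjoint S T := (disjoint_sdiff.mono_right hT)
    have hc : (S ∪ T).card = S.card + T.card := card_union_of_disjoint d1
    have hc2 : (U \ S).card = U.card - S.card := card_sdiff_of_subset hS
    rw [hc, hc2, pow_add, mul_assoc, Nat.sub_sub]
  rw [Finset.sum_congr rfl h1, ← Finset.mul_sum, sum_pow_mul_eq_add_pow,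
    card_sdiff_of_subset hS]

theorem mu_nonneg_term (p : ℝ) (hp0 : 0 ≤ p) (hp1 : p ≤ 1) (H : Finset E) :
    0 ≤ p ^ H.card * (1 - p) ^ (Fintype.card E - H.card) :=
  mul_nonneg (pow_nonneg hp0 _) (pow_nonneg (by linarith) _)

/-- The total weight of the supersets of `S` is `p ^ |S|`. -/
theorem sum_superset_weight (p : ℝ) (S : Finset E) :
    ∑ H ∈ (univ : Finset (Finset E)).filter (fun H => S ⊆ H),
      p ^ H.card * (1 - p) ^ (Fintype.card E - H.card) = p ^ S.card := by
  have h := sum_superset_pow (univ : Finset E) S (subset_univ S) p (1 - p)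
  rw [powerset_univ, card_univ] at h
  rw [h]
  simp

/-- The union bound over a family of forced sets. -/
theorem mu_le_sum_pow {ι : Type} (p : ℝ) (hp0 : 0 ≤ p) (hp1 : p ≤ 1) (P : Finset (Finset E))
    (I : Finset ι) (S : ι → Finset E) (hcov : ∀ H ∈ P, ∃ i ∈ I, S i ⊆ H) :
    mu p P ≤ ∑ i ∈ I, p ^ (S i).card := by
  classical
  unfold mu
  have h1 : ∀ i ∈ I, p ^ (S i).card = ∑ H : Finset E,
      if S i ⊆ H then p ^ H.card * (1 - p) ^ (Fintype.card E - H.card) else 0 := by
    intro i _
    rw [← sum_superset_weight p (S i), Finset.sum_filter]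
  rw [Finset.sum_congr rfl h1, Finset.sum_comm]
  have h2 : ∑ H ∈ P, p ^ H.card * (1 - p) ^ (Fintype.card E - H.card)
      ≤ ∑ H ∈ P, ∑ i ∈ I,
        if S i ⊆ H then p ^ H.card * (1 - p) ^ (Fintype.card E - H.card) else 0 := by
    refine Finset.sum_le_sum fun H hH => ?_
    obtain ⟨i, hi, hiH⟩ := hcov H hH
    have h3 : (if S i ⊆ H then p ^ H.card * (1 - p) ^ (Fintype.card E - H.card) else 0)
        ≤ ∑ j ∈ I, if S j ⊆ H then p ^ H.card * (1 - p) ^ (Fintype.card E - H.card) else 0 := by
      refine Finset.single_le_sum (f := fun j => if S j ⊆ H then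
        p ^ H.card * (1 - p) ^ (Fintype.card E - H.card) else 0) ?_ hi
      intro j _
      split_ifs
      · exact mu_nonneg_term p hp0 hp1 H
      · exact le_refl 0
    rw [if_pos hiH] at h3
    exact h3
  refine h2.trans ?_
  refine Finset.sum_le_sum_of_subset_of_nonneg (subset_univ P) ?_
  intro H _ _
  refine Finset.sum_nonneg fun j _ => ?_
  split_ifs
  · exact mu_nonneg_term p hp0 hp1 H
  · exact le_refl 0

end Vale.Agent.Lib.P063
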