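import Mathlib
import Vale.Agent.Lib.P063.Defs
import Vale.Agent.Lib.P063.General

namespace Vale.Agent.Lib.P063

open Finset

variable {n r : ℕ}

/-- The edges of the complete `r`-uniform hypergraph on the vertex set `K`. -/
def cliqueEdges (K : Finset (Fin n)) : Finset (Edge n r) :=
  (univ : Finset (Edge n r)).filter (fun e => e.1 ⊆ K)

/-- The property of containing a complete `r`-uniform hypergraph on `k` vertices. -/
def cliqueProp (n r k : ℕ) : Finset (Finset (Edge n r)) :=
  (univ : Finset (Finset (Edge n r))).filter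
    (fun H => ∃ K : Finset (Fin n), K.card = k ∧ cliqueEdges K ⊆ H)

theorem mem_cliqueProp {k : ℕ} {H : Finset (Edge n r)} :
    H ∈ cliqueProp n r k ↔ ∃ K : Finset (Fin n), K.card = k ∧ cliqueEdges K ⊆ H := by
  unfold cliqueProp
  rw [mem_filter]
  simp

theorem card_cliqueEdges (K : Finset (Fin n)) :
    (cliqueEdges K : Finset (Edge n r)).card = K.card.choose r := by
  rw [← card_powersetCard r K]
  refine Finset.card_bij (fun e _ => e.1) ?_ ?_ ?_
  · intro e he
    unfold cliqueEdges at he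
    rw [mem_filter] at he
    rw [mem_powersetCard]
    exact ⟨he.2, e.2⟩
  · intro e1 _ e2 _ h
    exact Subtype.ext h
  · intro s hs
    rw [mem_powersetCard] at hs
    refine ⟨⟨s, hs.2⟩, ?_, rfl⟩
    unfold cliqueEdges
    rw [mem_filter]
    exact ⟨mem_univ _, hs.1⟩

theorem cliqueProp_invariant (k : ℕ) (σ : Equiv.Perm (Fin n)) (H : Finset (Edge n r))
    (hH : H ∈ cliqueProp n r k) : relabel σ H ∈ cliqueProp n r k := by
  rw [mem_cliqueProp] at hH ⊢
  obtain ⟨K, hK, hKH⟩ := hH
  refine ⟨K.map σ.toEmbedding, by rw [card_map]; exact hK, ?_⟩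
  intro e' he'
  unfold cliqueEdges at he'
  rw [mem_filter] at he'
  unfold relabel
  rw [mem_image]
  have hcard : (e'.1.map σ.symm.toEmbedding).card = r := by rw [card_map]; exact e'.2
  refine ⟨⟨e'.1.map σ.symm.toEmbedding, hcard⟩, ?_, ?_⟩
  · apply hKH
    unfold cliqueEdges
    rw [mem_filter]
    refine ⟨mem_univ _, ?_⟩
    intro v hv
    rw [mem_map] at hv
    obtain ⟨w, hw, rfl⟩ := hv
    have hw' := he'.2 hw
    rw [mem_map] at hw'
    obtain ⟨u, hu, hu'⟩ := hw'
    have : σ.symm w = u := by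
      rw [← hu']
      simp
    simpa [this] using hu
  · apply Subtype.ext
    simp only
    ext v
    simp only [mem_map, Equiv.coe_toEmbedding]
    constructor
    · rintro ⟨w, ⟨u, hu, rfl⟩, rfl⟩
      simpa using hu
    · intro hv
      exact ⟨σ.symm v, ⟨v, hv, rfl⟩, by simp⟩

theorem cliqueProp_increasing (k : ℕ) (H : Finset (Edge n r)) (hH : H ∈ cliqueProp n r k)
    (H' : Finset (Edge n r)) (hsub : H ⊆ H') : H' ∈ cliqueProp n r k := by
  rw [mem_cliqueProp] at hH ⊢
  obtain ⟨K, hK, hKH⟩ := hH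
  exact ⟨K, hK, hKH.trans hsub⟩

theorem univ_mem_cliqueProp (k : ℕ) (hk : k ≤ n) :
    (univ : Finset (Edge n r)) ∈ cliqueProp n r k := by
  rw [mem_cliqueProp]
  have hcard : k ≤ (univ : Finset (Fin n)).card := by rw [card_univ, Fintype.card_fin]; exact hk
  obtain ⟨K, -, hK⟩ := exists_subset_card_eq hcard
  exact ⟨K, hK, subset_univ _⟩

theorem empty_notMem_cliqueProp (k : ℕ) (hk : r ≤ k) :
    (∅ : Finset (Edge n r)) ∉ cliqueProp n r k := by
  rw [mem_cliqueProp]
  rintro ⟨K, hK, hKH⟩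
  have h0 : (cliqueEdges K : Finset (Edge n r)).card = 0 := by
    rw [card_eq_zero]
    exact subset_empty.mp hKH
  rw [card_cliqueEdges, hK] at h0
  exact (Nat.choose_pos hk).ne' h0

theorem cliqueProp_witness (k : ℕ) (H : Finset (Edge n r)) (hH : H ∈ cliqueProp n r k) :
    ∃ S ∈ cliqueProp n r k, S ⊆ H ∧ S.card ≤ k.choose r := by
  rw [mem_cliqueProp] at hH
  obtain ⟨K, hK, hKH⟩ := hH
  refine ⟨cliqueEdges K, ?_, hKH, ?_⟩
  · rw [mem_cliqueProp]
    exact ⟨K, hK, subset_refl _⟩
  · rw [card_cliqueEdges, hK]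

/-- First moment bound for the clique property. -/
theorem mu_cliqueProp_le (k : ℕ) (p : ℝ) (hp0 : 0 ≤ p) (hp1 : p ≤ 1) :
    mu p (cliqueProp n r k) ≤ (n.choose k : ℝ) * p ^ (k.choose r) := by
  have h1 := mu_le_sum_pow p hp0 hp1 (cliqueProp n r k)
    ((univ : Finset (Fin n)).powersetCard k) (fun K => (cliqueEdges K : Finset (Edge n r))) ?_
  · refine h1.trans (le_of_eq ?_)
    have h2 : ∀ K ∈ (univ : Finset (Fin n)).powersetCard k,
        p ^ (cliqueEdges K : Finset (Edge n r)).card = p ^ (k.choose r) := by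
      intro K hK
      rw [mem_powersetCard] at hK
      rw [card_cliqueEdges, hK.2]
    rw [Finset.sum_congr rfl h2, Finset.sum_const, card_powersetCard, card_univ,
      Fintype.card_fin, nsmul_eq_mul]
  · intro H hH
    rw [mem_cliqueProp] at hH
    obtain ⟨K, hK, hKH⟩ := hH
    exact ⟨K, by rw [mem_powersetCard]; exact ⟨subset_univ _, hK⟩, hKH⟩

end Vale.Agent.Lib.P063
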