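import Mathlib

namespace Vale.Agent.Lib.P063

theorem pow_le_choose_mul (b m : ℕ) (hm : 1 ≤ m) : m ^ b ≤ (b * m).choose b := by
  induction b with
  | zero => simp
  | succ b ih =>
    obtain ⟨N, hN⟩ : ∃ N, (b + 1) * m = N + 1 := ⟨(b + 1) * m - 1, by
      have : 1 ≤ (b + 1) * m := Nat.mul_pos (Nat.succ_pos b) hm
      omega⟩
    have h1 := Nat.add_one_mul_choose_eq N b
    rw [← hN] at h1
    have h2 : ((b + 1) * m).choose (b + 1) = m * N.choose b := by
      have h3 : (b + 1) * (m * N.choose b) = (b + 1) * ((b + 1) * m).choose (b + 1) := by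
        rw [← mul_assoc, h1, mul_comm]
      exact (Nat.eq_of_mul_eq_mul_left (Nat.succ_pos b) h3).symm
    rw [h2, pow_succ, mul_comm]
    apply Nat.mul_le_mul_left
    refine ih.trans (Nat.choose_le_choose b ?_)
    have : (b + 1) * m = b * m + m := by ring
    omega

theorem one_lt_log_three : (1 : ℝ) < Real.log 3 := by
  rw [Real.lt_log_iff_exp_lt (by norm_num)]
  have := Real.exp_one_lt_d9
  linarith

theorem log_lt_two_sqrt (x : ℝ) (hx : 0 < x) : Real.log x < 2 * Real.sqrt x := by
  have h1 : 0 < Real.sqrt x := Real.sqrt_pos.mpr hx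
  have h2 := Real.log_le_sub_one_of_pos h1
  rw [Real.log_sqrt hx.le] at h2
  linarith

end Vale.Agent.Lib.P063
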