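import Mathlib
import Vale.Agent.Lib.P063.Defs
import Vale.Agent.Lib.P063.General

namespace Vale.Agent.Lib.P063

open Finset

variable {E : Type} [Fintype E] [DecidableEq E]

/-- The thinning identity: the `p1`-weight of `H'` is the total `p2`-weight of its supersets `H`,
each multiplied by the probability that a `θ`-thinning of `H` equals `H'` (`p1 = θ p2`). -/
theorem thinning_identity (p2 θ : ℝ) (H' : Finset E) :
    (p2 * θ) ^ H'.card * (1 - p2 * θ) ^ (Fintype.card E - H'.card)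
      = ∑ H ∈ (univ : Finset (Finset E)).filter (fun H => H' ⊆ H),
          p2 ^ H.card * (1 - p2) ^ (Fintype.card E - H.card)
            * (θ ^ H'.card * (1 - θ) ^ (H.card - H'.card)) := by
  have h0 := sum_superset_eq (univ : Finset E) H' (subset_univ H')
    (fun H => p2 ^ H.card * (1 - p2) ^ (Fintype.card E - H.card)
            * (θ ^ H'.card * (1 - θ) ^ (H.card - H'.card)))
  rw [powerset_univ] at h0
  rw [h0]
  have h1 : ∀ T ∈ (univ \ H' : Finset E).powerset,
      p2 ^ (H' ∪ T).card * (1 - p2) ^ (Fintype.card E - (H' ∪ T).card)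
            * (θ ^ H'.card * (1 - θ) ^ ((H' ∪ T).card - H'.card))
      = (p2 * θ) ^ H'.card * ((p2 * (1 - θ)) ^ T.card
          * (1 - p2) ^ ((univ \ H' : Finset E).card - T.card)) := by
    intro T hT
    rw [mem_powerset] at hT
    have d1 : Disjoint H' T := (disjoint_sdiff.mono_right hT)
    have hc : (H' ∪ T).card = H'.card + T.card := card_union_of_disjoint d1
    have hc2 : (univ \ H' : Finset E).card = Fintype.card E - H'.card := by
      rw [card_sdiff_of_subset (subset_univ H'), card_univ]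
    rw [hc, hc2, Nat.add_sub_cancel_left, Nat.sub_sub, pow_add, mul_pow, mul_pow]
    ring
  rw [Finset.sum_congr rfl h1, ← Finset.mul_sum, sum_pow_mul_eq_add_pow]
  have hc2 : (univ \ H' : Finset E).card = Fintype.card E - H'.card := by
    rw [card_sdiff_of_subset (subset_univ H'), card_univ]
  rw [hc2]
  congr 2
  ring

/-- Rewriting `mu (p2 * θ) P` as a `p2`-average of the chance that a thinning lands in `P`. -/
theorem mu_thin_eq (P : Finset (Finset E)) (p2 θ : ℝ) :
    mu (p2 * θ) P = ∑ H : Finset E, p2 ^ H.card * (1 - p2) ^ (Fintype.card E - H.card)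
      * ∑ H' ∈ P.filter (fun H' => H' ⊆ H), θ ^ H'.card * (1 - θ) ^ (H.card - H'.card) := by
  unfold mu
  have h1 : ∀ H' ∈ P, (p2 * θ) ^ H'.card * (1 - p2 * θ) ^ (Fintype.card E - H'.card)
      = ∑ H ∈ (univ : Finset (Finset E)).filter (fun H => H' ⊆ H),
          p2 ^ H.card * (1 - p2) ^ (Fintype.card E - H.card)
            * (θ ^ H'.card * (1 - θ) ^ (H.card - H'.card)) :=
    fun H' _ => thinning_identity p2 θ H'
  rw [Finset.sum_congr rfl h1]
  rw [Finset.sum_comm' (s' := fun H => P.filter (fun H' => H' ⊆ H)) (t' := univ)]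
  · refine Finset.sum_congr rfl fun H _ => ?_
    rw [Finset.mul_sum]
  · intro H' H
    simp only [mem_filter, mem_univ, true_and, and_true]

theorem inner_le_one (P : Finset (Finset E)) (θ : ℝ) (h0 : 0 ≤ θ) (h1 : θ ≤ 1) (H : Finset E) :
    ∑ H' ∈ P.filter (fun H' => H' ⊆ H), θ ^ H'.card * (1 - θ) ^ (H.card - H'.card) ≤ 1 := by
  have h2 : P.filter (fun H' => H' ⊆ H) ⊆ H.powerset := by
    intro H' hH'
    rw [mem_filter] at hH'
    exact mem_powerset.mpr hH'.2
  have h3 := Finset.sum_le_sum_of_subset_of_nonneg h2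
    (f := fun H' => θ ^ H'.card * (1 - θ) ^ (H.card - H'.card))
    (fun H' _ _ => mul_nonneg (pow_nonneg h0 _) (pow_nonneg (by linarith) _))
  refine h3.trans ?_
  rw [sum_pow_mul_eq_add_pow]
  simp

/-- Monotonicity of `mu` in `p` for increasing families. -/
theorem mu_mono (P : Finset (Finset E)) (hinc : ∀ H ∈ P, ∀ H' : Finset E, H ⊆ H' → H' ∈ P)
    (p1 p2 : ℝ) (h1 : 0 ≤ p1) (h12 : p1 ≤ p2) (h2 : p2 ≤ 1) : mu p1 P ≤ mu p2 P := by
  rcases eq_or_lt_of_le (h1.trans h12) with h0 | hpos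
  · have : p1 = p2 := le_antisymm h12 (by rw [← h0]; exact h1)
    rw [this]
  set θ := p1 / p2 with hθ
  have hθ0 : 0 ≤ θ := div_nonneg h1 hpos.le
  have hθ1 : θ ≤ 1 := (div_le_one hpos).mpr h12
  have hp1 : p1 = p2 * θ := by rw [hθ]; field_simp
  rw [hp1, mu_thin_eq]
  unfold mu
  have hsplit : ∑ H ∈ P, p2 ^ H.card * (1 - p2) ^ (Fintype.card E - H.card)
      = ∑ H : Finset E, if H ∈ P then p2 ^ H.card * (1 - p2) ^ (Fintype.card E - H.card)
          else 0 := by
    rw [Finset.sum_ite_mem, univ_inter]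
  rw [hsplit]
  refine Finset.sum_le_sum fun H _ => ?_
  by_cases hH : H ∈ P
  · rw [if_pos hH]
    have := inner_le_one P θ hθ0 hθ1 H
    have hw := mu_nonneg_term p2 hpos.le h2 H
    nlinarith
  · rw [if_neg hH]
    have hempty : P.filter (fun H' => H' ⊆ H) = ∅ := by
      rw [Finset.filter_eq_empty_iff]
      intro H' hH' hsub
      exact hH (hinc H' hH' H hsub)
    rw [hempty, Finset.sum_empty, mul_zero]

/-- Slow growth: if every member of the increasing family `P` contains a member with at most `M`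
elements, then `mu` can grow at most like the `M`-th power of `p`. -/
theorem mu_thin_lower (P : Finset (Finset E))
    (hinc : ∀ H ∈ P, ∀ H' : Finset E, H ⊆ H' → H' ∈ P) (M : ℕ)
    (hM : ∀ H ∈ P, ∃ S ∈ P, S ⊆ H ∧ S.card ≤ M)
    (p1 p2 : ℝ) (h1 : 0 ≤ p1) (h12 : p1 ≤ p2) (h2 : p2 ≤ 1) (hpos : 0 < p2) :
    (p1 / p2) ^ M * mu p2 P ≤ mu p1 P := by
  set θ := p1 / p2 with hθ
  have hθ0 : 0 ≤ θ := div_nonneg h1 hpos.le
  have hθ1 : θ ≤ 1 := (div_le_one hpos).mpr h12
  have hp1 : p1 = p2 * θ := by rw [hθ]; field_simp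
  rw [hp1, mu_thin_eq]
  unfold mu
  have hsplit : ∑ H ∈ P, p2 ^ H.card * (1 - p2) ^ (Fintype.card E - H.card)
      = ∑ H : Finset E, if H ∈ P then p2 ^ H.card * (1 - p2) ^ (Fintype.card E - H.card)
          else 0 := by
    rw [Finset.sum_ite_mem, univ_inter]
  rw [hsplit, Finset.mul_sum]
  refine Finset.sum_le_sum fun H _ => ?_
  have hw := mu_nonneg_term p2 hpos.le h2 H
  have hinner0 : 0 ≤ ∑ H' ∈ P.filter (fun H' => H' ⊆ H),
      θ ^ H'.card * (1 - θ) ^ (H.card - H'.card) :=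
    Finset.sum_nonneg fun H' _ => mul_nonneg (pow_nonneg hθ0 _) (pow_nonneg (by linarith) _)
  by_cases hH : H ∈ P
  · rw [if_pos hH]
    obtain ⟨S, hSP, hSH, hSM⟩ := hM H hH
    have hsub : H.powerset.filter (fun H' => S ⊆ H') ⊆ P.filter (fun H' => H' ⊆ H) := by
      intro H' hH'
      rw [mem_filter, mem_powerset] at hH'
      rw [mem_filter]
      exact ⟨hinc S hSP H' hH'.2, hH'.1⟩
    have h3 := Finset.sum_le_sum_of_subset_of_nonneg hsub
      (f := fun H' => θ ^ H'.card * (1 - θ) ^ (H.card - H'.card))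
      (fun H' _ _ => mul_nonneg (pow_nonneg hθ0 _) (pow_nonneg (by linarith) _))
    rw [sum_superset_pow H S hSH θ (1 - θ)] at h3
    have h4 : θ ^ M ≤ θ ^ S.card := pow_le_pow_of_le_one hθ0 hθ1 hSM
    have h5 : θ ^ S.card * (θ + (1 - θ)) ^ (H.card - S.card) = θ ^ S.card := by
      simp
    rw [h5] at h3
    have h6 : θ ^ M ≤ ∑ H' ∈ P.filter (fun H' => H' ⊆ H),
        θ ^ H'.card * (1 - θ) ^ (H.card - H'.card) := h4.trans h3
    calc θ ^ M * (p2 ^ H.card * (1 - p2) ^ (Fintype.card E - H.card))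
        = p2 ^ H.card * (1 - p2) ^ (Fintype.card E - H.card) * θ ^ M := by ring
      _ ≤ _ := mul_le_mul_of_nonneg_left h6 hw
  · rw [if_neg hH, mul_zero]
    exact mul_nonneg hw hinner0

end Vale.Agent.Lib.P063
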