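import Mathlib
import Vale.Agent.Lib.P063.Defs
import Vale.Agent.Lib.P063.General
import Vale.Agent.Lib.P063.Thinning

namespace Vale.Agent.Lib.P063

open Finset

variable {E : Type} [Fintype E] [DecidableEq E]

theorem mu_one (P : Finset (Finset E)) (huniv : (univ : Finset E) ∈ P) : mu 1 P = 1 := by
  unfold mu
  have h1 : ∀ H ∈ P, (1 : ℝ) ^ H.card * (1 - 1) ^ (Fintype.card E - H.card)
      = if H = univ then 1 else 0 := by
    intro H _
    by_cases hH : H = univ
    · rw [if_pos hH, hH, card_univ]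
      simp
    · rw [if_neg hH]
      have hlt : H.card < Fintype.card E := by
        rw [← card_univ]
        exact card_lt_card (ssubset_univ_iff.mpr hH)
      have hpos : Fintype.card E - H.card ≠ 0 := by omega
      simp [hpos]
  rw [Finset.sum_congr rfl h1, Finset.sum_ite_eq' P univ]
  rw [if_pos huniv]

/-- A lower bound for the threshold width of an increasing family with small witnesses. -/
theorem width_lower_bound (P : Finset (Finset E))
    (hinc : ∀ H ∈ P, ∀ H' : Finset E, H ⊆ H' → H' ∈ P) (M : ℕ) (hM1 : 1 ≤ M)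
    (hM : ∀ H ∈ P, ∃ S ∈ P, S ⊆ H ∧ S.card ≤ M) (huniv : (univ : Finset E) ∈ P)
    (ε : ℝ) (hε : 0 < ε) (hε2 : ε < 1 / 2) (p0 : ℝ) (hp0 : 0 < p0)
    (hfirst : ∀ p : ℝ, 0 ≤ p → p < p0 → mu p P < ε) :
    p0 * (Real.log ((1 - ε) / ε) / M) ≤ threshold P (1 - ε) - threshold P ε := by
  unfold threshold
  set A : Set ℝ := {p : ℝ | 0 ≤ p ∧ p ≤ 1 ∧ ε ≤ mu p P} with hA
  set B : Set ℝ := {p : ℝ | 0 ≤ p ∧ p ≤ 1 ∧ 1 - ε ≤ mu p P} with hB
  have hmu1 := mu_one P huniv
  have h1A : (1 : ℝ) ∈ A := ⟨by norm_num, le_refl 1, by rw [hmu1]; linarith⟩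
  have h1B : (1 : ℝ) ∈ B := ⟨by norm_num, le_refl 1, by rw [hmu1]; linarith⟩
  have hAbdd : BddBelow A := ⟨0, fun p hp => hp.1⟩
  have hBbdd : BddBelow B := ⟨0, fun p hp => hp.1⟩
  have hBA : B ⊆ A := fun p hp => ⟨hp.1, hp.2.1, by linarith [hp.2.2]⟩
  set a := sInf A with ha
  set b := sInf B with hb
  have hab : a ≤ b := csInf_le_csInf hAbdd ⟨1, h1B⟩ hBA
  have hap0 : p0 ≤ a := by
    apply le_csInf ⟨1, h1A⟩
    intro p hp
    by_contra hlt
    push Not at hlt
    have := hfirst p hp.1 hlt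
    linarith [hp.2.2]
  have hapos : 0 < a := lt_of_lt_of_le hp0 hap0
  have hMpos : (0 : ℝ) < (M : ℝ) := by exact_mod_cast hM1
  set ρ := (1 - ε) / ε with hρ
  have hρ1 : 1 < ρ := by
    rw [hρ, lt_div_iff₀ hε]
    linarith
  have hρpos : 0 < ρ := by linarith
  set x := Real.log ρ / M with hx
  have hxpos : 0 < x := div_pos (Real.log_pos hρ1) hMpos
  set g := Real.exp x with hg
  have hg1 : 1 + x ≤ g := by
    rw [hg, add_comm]
    exact Real.add_one_le_exp x
  have hgpos : 0 < g := Real.exp_pos x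
  have hgM : g ^ M = ρ := by
    rw [hg, ← Real.exp_nat_mul, hx, mul_div_cancel₀ _ hMpos.ne', Real.exp_log hρpos]
  have key : a * g ≤ b := by
    by_contra hlt
    push Not at hlt
    obtain ⟨p2, hp2B, hp2lt⟩ := exists_lt_of_csInf_lt ⟨1, h1B⟩ hlt
    have hbp2 : b ≤ p2 := csInf_le hBbdd hp2B
    have hap2 : a ≤ p2 := hab.trans hbp2
    have hp2pos : 0 < p2 := lt_of_lt_of_le hapos hap2
    have hp2g : p2 / g < a := by
      rw [div_lt_iff₀ hgpos]
      exact hp2lt
    set p1 := (a + p2 / g) / 2 with hp1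
    have hp1a : p1 < a := by rw [hp1]; linarith
    have hp1g : p2 / g < p1 := by rw [hp1]; linarith
    have hp1pos : 0 < p1 := lt_trans (div_pos hp2pos hgpos) hp1g
    have hp1p2 : p1 ≤ p2 := (hp1a.le).trans hap2
    have hp1notA : p1 ∉ A := notMem_of_lt_csInf hp1a hAbdd
    have hmu1lt : mu p1 P < ε := by
      by_contra hge
      push Not at hge
      exact hp1notA ⟨hp1pos.le, hp1p2.trans hp2B.2.1, hge⟩
    have hthin := mu_thin_lower P hinc M hM p1 p2 hp1pos.le hp1p2 hp2B.2.1 hp2pos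
    have hratio : 1 / g < p1 / p2 := by
      rw [div_lt_div_iff₀ hgpos hp2pos, one_mul]
      have := (div_lt_iff₀ hgpos).mp hp1g
      linarith
    have hpow : (1 / g) ^ M < (p1 / p2) ^ M :=
      pow_lt_pow_left₀ hratio (by positivity) (by omega)
    have hinv : (1 / g) ^ M = ε / (1 - ε) := by
      rw [one_div, inv_pow, hgM, hρ, inv_div]
    have h1ε : 0 < 1 - ε := by linarith
    have hmu2 : 1 - ε ≤ mu p2 P := hp2B.2.2
    have : ε < (p1 / p2) ^ M * mu p2 P := by
      calc ε = ε / (1 - ε) * (1 - ε) := by field_simp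
        _ < (p1 / p2) ^ M * (1 - ε) := by
          rw [← hinv]
          exact mul_lt_mul_of_pos_right hpow h1ε
        _ ≤ (p1 / p2) ^ M * mu p2 P :=
          mul_le_mul_of_nonneg_left hmu2 (by positivity)
    linarith
  have h2 : p0 * x ≤ a * (g - 1) := by
    have : x ≤ g - 1 := by linarith
    calc p0 * x ≤ a * x := mul_le_mul_of_nonneg_right hap0 hxpos.le
      _ ≤ a * (g - 1) := mul_le_mul_of_nonneg_left this hapos.le
  linarith

end Vale.Agent.Lib.P063
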