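import Mathlib
import Vale.Agent.Lib.P063.Defs
import Vale.Agent.Lib.P063.General
import Vale.Agent.Lib.P063.Thinning
import Vale.Agent.Lib.P063.Width
import Vale.Agent.Lib.P063.Clique
import Vale.Agent.Lib.P063.Numerics

namespace Vale.Agent.Lib.P063

open Finset

theorem clique_width (r : ℕ) (hr : 2 ≤ r) (ε : ℝ) (hε : 0 < ε) (hε2 : ε < 1 / 2) :
    ∃ c : ℝ, 0 < c ∧ ∃ n₀ : ℕ, ∀ n : ℕ, n₀ ≤ n →
      ∃ P : Finset (Finset (Edge n r)), IsNontrivialIncreasingProperty P ∧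
        c * (Real.log n) ^ (-((r : ℝ) / ((r : ℝ) - 1)))
          ≤ threshold P (1 - ε) - threshold P ε := by
  have hρ1 : 1 < (1 - ε) / ε := by rw [lt_div_iff₀ hε]; linarith
  have hlogρ : 0 < Real.log ((1 - ε) / ε) := Real.log_pos hρ1
  have hr2 : (2 : ℝ) ≤ (r : ℝ) := by exact_mod_cast hr
  have hrpos : (0 : ℝ) < (r : ℝ) := by linarith
  have h2rpos : (0 : ℝ) < (2 * (r : ℝ)) ^ r := by positivity
  refine ⟨Real.exp (-(2 * (r : ℝ))) * Real.log ((1 - ε) / ε) / ((2 * (r : ℝ)) ^ r), by positivity,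
    max (max 3 (16 * r ^ 2)) (⌈1 / ε⌉₊ + 1), ?_⟩
  intro n hn
  have hn3 : 3 ≤ n := le_trans (le_trans (le_max_left 3 _) (le_max_left _ _)) hn
  have hn16 : 16 * r ^ 2 ≤ n := le_trans (le_trans (le_max_right 3 _) (le_max_left _ _)) hn
  have hnε' : ⌈1 / ε⌉₊ + 1 ≤ n := le_trans (le_max_right _ _) hn
  have hnε : 1 / ε < (n : ℝ) := by
    have h1 : (1 / ε) ≤ (⌈1 / ε⌉₊ : ℝ) := Nat.le_ceil _
    have h2 : ((⌈1 / ε⌉₊ + 1 : ℕ) : ℝ) ≤ (n : ℝ) := by exact_mod_cast hnε'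
    push_cast at h2
    linarith
  have hnpos : (0 : ℝ) < (n : ℝ) := by
    have : (3 : ℝ) ≤ (n : ℝ) := by exact_mod_cast hn3
    linarith
  set L := Real.log n with hL
  have hL1 : 1 < L := by
    have h3 : Real.log 3 ≤ Real.log n :=
      Real.log_le_log (by norm_num) (by exact_mod_cast hn3)
    exact lt_of_lt_of_le one_lt_log_three h3
  have hL0 : 0 ≤ L := by linarith
  have hr1 : (0 : ℝ) < (r : ℝ) - 1 := by linarith
  set a : ℝ := 1 / ((r : ℝ) - 1) with ha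
  have ha0 : 0 < a := by rw [ha]; positivity
  have ha1 : a ≤ 1 := by
    rw [ha, div_le_one hr1]
    linarith
  set y := L ^ a with hy
  have hy1 : 1 ≤ y := Real.one_le_rpow hL1.le ha0.le
  have hyL : y ≤ L := by
    have := Real.rpow_le_rpow_of_exponent_le hL1.le ha1
    rwa [Real.rpow_one] at this
  set m := ⌈y⌉₊ with hm
  have hm1 : 1 ≤ m := Nat.one_le_iff_ne_zero.mpr (Nat.ceil_pos.mpr (by linarith)).ne'
  have hmy : y ≤ (m : ℝ) := Nat.le_ceil y
  have hmy2 : (m : ℝ) < y + 1 := Nat.ceil_lt_add_one (by linarith)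
  set k := 1 + (r - 1) * m with hk
  have hrk : r ≤ k := by
    have : (r - 1) * 1 ≤ (r - 1) * m := Nat.mul_le_mul_left _ hm1
    omega
  have hk1 : 1 ≤ k := by omega
  have hkreal : (k : ℝ) ≤ (r : ℝ) * (2 * y) := by
    have h1 : (k : ℝ) = 1 + ((r : ℝ) - 1) * (m : ℝ) := by
      rw [hk]
      push_cast [Nat.cast_sub (by omega : 1 ≤ r)]
      ring
    rw [h1]
    have h2 : (m : ℝ) ≤ 2 * y := by linarith
    have h3 : (1 : ℝ) ≤ (m : ℝ) := by exact_mod_cast hm1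
    have h4 : 1 + ((r : ℝ) - 1) * (m : ℝ) ≤ (r : ℝ) * (m : ℝ) := by linarith
    exact h4.trans (mul_le_mul_of_nonneg_left h2 hrpos.le)
  have hkn : k ≤ n := by
    have h1 : L < 2 * Real.sqrt n := log_lt_two_sqrt n hnpos
    have h2 : (4 * (r : ℝ)) ≤ Real.sqrt n := by
      have h16 : ((16 * r ^ 2 : ℕ) : ℝ) ≤ (n : ℝ) := by exact_mod_cast hn16
      push_cast at h16
      have hsq : (4 * (r : ℝ)) = Real.sqrt ((4 * (r : ℝ)) ^ 2) :=
        (Real.sqrt_sq (by positivity)).symm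
      rw [hsq]
      apply Real.sqrt_le_sqrt
      nlinarith
    have h3 : Real.sqrt n * Real.sqrt n = n := Real.mul_self_sqrt hnpos.le
    have h4 : (k : ℝ) ≤ (n : ℝ) := by
      have h5 : (k : ℝ) ≤ (r : ℝ) * (2 * L) :=
        hkreal.trans (mul_le_mul_of_nonneg_left (by linarith) hrpos.le)
      have h6 : 0 ≤ Real.sqrt n := Real.sqrt_nonneg _
      have h7 : (r : ℝ) * (2 * L) ≤ (r : ℝ) * (2 * (2 * Real.sqrt n)) :=
        mul_le_mul_of_nonneg_left (by linarith) hrpos.le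
      have h8 : (r : ℝ) * (2 * (2 * Real.sqrt n)) = (4 * (r : ℝ)) * Real.sqrt n := by ring
      have h9 : (4 * (r : ℝ)) * Real.sqrt n ≤ Real.sqrt n * Real.sqrt n :=
        mul_le_mul_of_nonneg_right h2 h6
      linarith
    exact_mod_cast h4
  set M := k.choose r with hMdef
  have hM1 : 1 ≤ M := Nat.choose_pos hrk
  have hMposR : (0 : ℝ) < (M : ℝ) := by exact_mod_cast hM1
  -- the exponent
  have hcast : (((r - 1 : ℕ)) : ℝ) = (r : ℝ) - 1 := by
    rw [Nat.cast_sub (by omega : 1 ≤ r)]; simp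
  have hyr1 : y ^ (r - 1) = L := by
    rw [← Real.rpow_natCast, hy, ← Real.rpow_mul hL0, hcast, ha, one_div,
      inv_mul_cancel₀ hr1.ne', Real.rpow_one]
  have hyr : y ^ r = L ^ ((r : ℝ) / ((r : ℝ) - 1)) := by
    rw [← Real.rpow_natCast, hy, ← Real.rpow_mul hL0, ha]
    congr 1
    field_simp
  have hML : (M : ℝ) ≤ (2 * (r : ℝ)) ^ r * L ^ ((r : ℝ) / ((r : ℝ) - 1)) := by
    have h1 : (M : ℝ) ≤ (k : ℝ) ^ r := by
      have := Nat.choose_le_pow k r
      exact_mod_cast this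
    have h2 : (k : ℝ) ^ r ≤ ((r : ℝ) * (2 * y)) ^ r :=
      pow_le_pow_left₀ (by positivity) hkreal r
    have h3 : ((r : ℝ) * (2 * y)) ^ r = (2 * (r : ℝ)) ^ r * y ^ r := by
      rw [← mul_pow]; congr 1; ring
    rw [← hyr, ← h3]
    exact h1.trans h2
  have hrM : (k : ℝ) * L ≤ (r : ℝ) * (M : ℝ) := by
    have h1 : k * (k - 1).choose (r - 1) = M * r := by
      have := Nat.add_one_mul_choose_eq (k - 1) (r - 1)
      rw [Nat.sub_add_cancel hk1, Nat.sub_add_cancel (by omega : 1 ≤ r)] at this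
      exact this
    have h2 : m ^ (r - 1) ≤ (k - 1).choose (r - 1) := by
      have h3 : k - 1 = (r - 1) * m := by omega
      rw [h3]
      exact pow_le_choose_mul (r - 1) m hm1
    have h4 : L ≤ ((k - 1).choose (r - 1) : ℝ) := by
      have h5 : y ^ (r - 1) ≤ (m : ℝ) ^ (r - 1) := pow_le_pow_left₀ (by linarith) hmy _
      have h6 : ((m ^ (r - 1) : ℕ) : ℝ) ≤ ((k - 1).choose (r - 1) : ℝ) := by exact_mod_cast h2
      push_cast at h6
      linarith
    have h7 : (k : ℝ) * ((k - 1).choose (r - 1) : ℝ) = (M : ℝ) * (r : ℝ) := by exact_mod_cast h1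
    have h8 : (0 : ℝ) ≤ (k : ℝ) := Nat.cast_nonneg k
    have h9 : (k : ℝ) * L ≤ (k : ℝ) * ((k - 1).choose (r - 1) : ℝ) :=
      mul_le_mul_of_nonneg_left h4 h8
    linarith
  set p0 := Real.exp (-(2 * (r : ℝ))) with hp0
  have hp0pos : 0 < p0 := Real.exp_pos _
  have hp0le : p0 ≤ 1 := by
    rw [hp0, Real.exp_le_one_iff]
    linarith
  have hfirst : ∀ p : ℝ, 0 ≤ p → p < p0 → mu p (cliqueProp n r k) < ε := by
    intro p hp0' hpp0
    have hp1 : p ≤ 1 := by linarith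
    have h1 := mu_cliqueProp_le (n := n) (r := r) k p hp0' hp1
    have h2 : (n.choose k : ℝ) ≤ (n : ℝ) ^ k := by
      have := Nat.choose_le_pow n k
      exact_mod_cast this
    have h3 : p ^ M ≤ p0 ^ M := pow_le_pow_left₀ hp0' hpp0.le M
    have h4 : (n : ℝ) ^ k = Real.exp ((k : ℝ) * L) := by
      rw [Real.exp_nat_mul, hL, Real.exp_log hnpos]
    have h5 : p0 ^ M = Real.exp ((M : ℝ) * (-(2 * (r : ℝ)))) := by
      rw [Real.exp_nat_mul]
    have h6 : (n.choose k : ℝ) * p ^ M ≤ Real.exp ((k : ℝ) * L) * Real.exp ((M : ℝ) * (-(2 * (r : ℝ)))) := by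
      rw [← h4, ← h5]
      exact mul_le_mul h2 h3 (pow_nonneg hp0' _) (by positivity)
    have h7 : Real.exp ((k : ℝ) * L) * Real.exp ((M : ℝ) * (-(2 * (r : ℝ)))) ≤ Real.exp (-L) := by
      rw [← Real.exp_add, Real.exp_le_exp]
      have h8 : (1 : ℝ) ≤ (k : ℝ) := by exact_mod_cast hk1
      have h11 : L ≤ (k : ℝ) * L := le_mul_of_one_le_left hL0 h8
      linarith
    have h9 : Real.exp (-L) = 1 / (n : ℝ) := by
      rw [Real.exp_neg, hL, Real.exp_log hnpos, one_div]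
    have h10 : 1 / (n : ℝ) < ε := by
      rw [div_lt_iff₀ hnpos]
      have := (div_lt_iff₀ hε).mp hnε
      linarith
    linarith
  refine ⟨cliqueProp n r k, ⟨?_, ?_, ?_, ?_⟩, ?_⟩
  · exact fun σ H hH => cliqueProp_invariant k σ H hH
  · exact fun H hH H' hsub => cliqueProp_increasing k H hH H' hsub
  · exact ⟨univ, univ_mem_cliqueProp k hkn⟩
  · intro h
    have : (∅ : Finset (Edge n r)) ∈ cliqueProp n r k := by rw [h]; exact mem_univ _
    exact empty_notMem_cliqueProp k hrk this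
  · have hw := width_lower_bound (cliqueProp n r k)
      (fun H hH H' hsub => cliqueProp_increasing k H hH H' hsub) M hM1
      (fun H hH => cliqueProp_witness k H hH) (univ_mem_cliqueProp k hkn) ε hε hε2 p0 hp0pos hfirst
    refine le_trans ?_ hw
    have hLx : 0 < L ^ ((r : ℝ) / ((r : ℝ) - 1)) := Real.rpow_pos_of_pos (by linarith) _
    rw [Real.rpow_neg hL0]
    have h1 : p0 * Real.log ((1 - ε) / ε) / (2 * (r : ℝ)) ^ r * (L ^ ((r : ℝ) / ((r : ℝ) - 1)))⁻¹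
        = p0 * (Real.log ((1 - ε) / ε) / ((2 * (r : ℝ)) ^ r * L ^ ((r : ℝ) / ((r : ℝ) - 1)))) := by
      field_simp
    rw [h1]
    apply mul_le_mul_of_nonneg_left _ hp0pos.le
    exact div_le_div_of_nonneg_left hlogρ.le hMposR hML

end Vale.Agent.Lib.P063
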